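import Vale.Agent.P252.H687.FlatCore

/-!
# Basic facts on `BaseK`: bounded sublevel sets and an interior point
-/

open scoped ContDiff Topology
open Filter MeasureTheory

namespace Vale.Agent.P252.H687

open Vale.Agent.P252.R

theorem norm_le_of_abs_le {n : ℕ} (x : En n) (M : ℝ) (h : ∀ i, |x i| ≤ M) : ‖x‖ ≤ n * M := by
  rw [← sum_single x]
  refine (norm_sum_le _ _).trans ?_
  calc ∑ i : Fin n, ‖x i • (EuclideanSpace.single i (1 : ℝ) : En n)‖ ≤ ∑ _i : Fin n, M := by
        apply Finset.sum_le_sum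
        intro i _
        rw [norm_smul]
        simpa using h i
    _ = n * M := by simp

/-- Sublevel sets of `z` on a base set are bounded. -/
theorem bounded_sublevel {n : ℕ} {K : Set (En n × ℝ)} (hK : BaseK n K) (M : ℝ) :
    Bornology.IsBounded {p | p ∈ K ∧ p.2 ≤ M} := by
  have hM : 0 < max M 1 := lt_of_lt_of_le one_pos (le_max_right _ _)
  apply (Metric.isBounded_closedBall (x := (0 : En n × ℝ))
    (r := max (n * max M 1) (max M 1))).subset
  rintro p ⟨hp, hpM⟩
  have hpM' : p.2 ≤ max M 1 := hpM.trans (le_max_left _ _)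
  have h1 : (max M 1)⁻¹ • p ∈ K := by
    have h2 := hK.cvx hK.zero_mem hp (a := 1 - (max M 1)⁻¹) (b := (max M 1)⁻¹)
      (by
        have : (max M 1)⁻¹ ≤ 1 := inv_le_one_of_one_le₀ (le_max_right _ _)
        linarith) (by positivity) (by ring)
    simpa using h2
  have h3 : ∀ j, |((max M 1)⁻¹ • p).1 j| ≤ 1 := by
    apply hK.box _ h1
    simp only [Prod.smul_snd, smul_eq_mul]
    rw [inv_mul_le_iff₀ hM]
    linarith
  have h4 : ∀ j, |p.1 j| ≤ max M 1 := by
    intro j
    have := h3 j
    simp only [Prod.smul_fst, PiLp.smul_apply, smul_eq_mul, abs_mul, abs_inv,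
      abs_of_pos hM] at this
    rw [inv_mul_le_iff₀ hM] at this
    linarith
  rw [mem_closedBall_zero_iff]
  refine max_le ((norm_le_of_abs_le _ _ h4).trans (le_max_left _ _)) ?_
  rw [Real.norm_eq_abs, abs_of_nonneg (hK.nonneg_z p hp)]
  exact hpM'.trans (le_max_right _ _)

theorem isCompact_sublevel {n : ℕ} {K : Set (En n × ℝ)} (hK : BaseK n K) (M : ℝ) :
    IsCompact {p | p ∈ K ∧ p.2 ≤ M} :=
  Metric.isCompact_of_isClosed_isBounded
    (hK.closed.inter (isClosed_le continuous_snd continuous_const)) (bounded_sublevel hK M)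

/-- A base set has interior points: positive coordinates with sum `< 1`, height `> 1`. -/
theorem mem_interior_base {n : ℕ} {K : Set (En n × ℝ)} (hn : 0 < n) (hK : BaseK n K)
    (p : En n × ℝ) (h1 : ∀ i, 0 < p.1 i) (h2 : ∑ i, p.1 i < 1) (h3 : 1 < p.2) :
    p ∈ interior K := by
  classical
  have hopen : IsOpen {p : En n × ℝ | (∀ i, 0 < p.1 i) ∧ ∑ i, p.1 i < 1 ∧ 1 < p.2} := by
    apply IsOpen.inter
    · have : {p : En n × ℝ | ∀ i, 0 < p.1 i} = ⋂ i, {p : En n × ℝ | 0 < p.1 i} := by
        ext; simp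
      change IsOpen {p : En n × ℝ | ∀ i, 0 < p.1 i}
      rw [this]
      apply isOpen_iInter_of_finite
      intro i
      exact isOpen_lt continuous_const (by fun_prop)
    · apply IsOpen.inter
      · have hc : Continuous fun p : En n × ℝ => ∑ i, p.1 i := by fun_prop
        exact isOpen_lt hc continuous_const
      · exact isOpen_lt continuous_const continuous_snd
  apply interior_maximal _ hopen ⟨h1, h2, h3⟩
  rintro p ⟨h1, h2, h3⟩
  set S := ∑ i, p.1 i with hS
  have hSpos : 0 < S := by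
    apply Finset.sum_pos (fun i _ => h1 i)
    exact ⟨⟨0, hn⟩, Finset.mem_univ _⟩
  have h4 : ∑ i, (p.1 i / S) • ((EuclideanSpace.single i (1 : ℝ) : En n), (1 : ℝ)) ∈ K := by
    apply hK.cvx.sum_mem
    · intro i _; exact div_nonneg (h1 i).le hSpos.le
    · rw [← Finset.sum_div, ← hS, div_self hSpos.ne']
    · intro i _; exact hK.simplex i
  have h5 := hK.cvx hK.zero_mem h4 (a := 1 - S) (b := S) (by linarith) hSpos.le (by ring)
  have h6 : (1 - S) • (0 : En n × ℝ) +
      S • ∑ i, (p.1 i / S) • ((EuclideanSpace.single i (1 : ℝ) : En n), (1 : ℝ)) = (p.1, S) := by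
    rw [smul_zero, zero_add, Finset.smul_sum]
    refine Prod.ext ?_ ?_
    · rw [Prod.fst_sum]
      conv_rhs => rw [← sum_single p.1]
      apply Finset.sum_congr rfl
      intro i _
      simp only [Prod.smul_fst, smul_smul]
      congr 1
      field_simp
    · rw [Prod.snd_sum]
      simp only [Prod.smul_snd, smul_eq_mul, mul_one]
      conv_rhs => rw [hS]
      apply Finset.sum_congr rfl
      intro i _
      field_simp
  rw [h6] at h5
  have h7 := hK.up _ h5 (p.2 - S) (by linarith)
  simpa using h7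

theorem exists_interior_base {n : ℕ} {K : Set (En n × ℝ)} (hn : 0 < n) (hK : BaseK n K) :
    ∃ q₀, q₀ ∈ interior K := by
  have hn' : (0 : ℝ) < n := by exact_mod_cast hn
  refine ⟨(WithLp.toLp 2 fun _ => 1 / (2 * (n : ℝ)), 2), mem_interior_base hn hK _ ?_ ?_ ?_⟩
  · intro i; show (0 : ℝ) < 1 / (2 * (n : ℝ)); positivity
  · have : ∑ _i : Fin n, 1 / (2 * (n : ℝ)) = 1 / 2 := by
      rw [Finset.sum_const, Finset.card_univ, Fintype.card_fin, nsmul_eq_mul]
      field_simp
    calc ∑ i : Fin n, (WithLp.toLp 2 fun _ => 1 / (2 * (n : ℝ)) : En n) i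
        = ∑ _i : Fin n, 1 / (2 * (n : ℝ)) := rfl
      _ = 1 / 2 := this
      _ < 1 := by norm_num
  · show (1 : ℝ) < 2; norm_num

end Vale.Agent.P252.H687
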