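import Vale.Agent.P252.R.Spec

/-!
# A linear change of variables with prescribed first coordinate and first axis
-/

open scoped ContDiff Topology
open Filter MeasureTheory

namespace Vale.Agent.P252.H687

open Vale.Agent.P252.R

/-- Given a covector `a` and a vector `v` with `a·v = 1` and `lam ≠ 0` there is a linear
isomorphism `T` with `a·(T x) = lam x₀` and `T e₀ = lam v`. -/
theorem exists_T {n : ℕ} (i₀ : Fin n) (a : Fin n → ℝ) (v : En n) (hv : ∑ i, a i * v i = 1)
    (lam : ℝ) (hl : lam ≠ 0) :
    ∃ T : En n ≃L[ℝ] En n, (∀ x, ∑ i, a i * (T x) i = lam * x i₀) ∧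
      T (EuclideanSpace.single i₀ 1) = lam • v := by
  classical
  have ha : ∃ m, a m ≠ 0 := by
    by_contra h
    push Not at h
    simp [h] at hv
  obtain ⟨m, hm⟩ := ha
  let σ : Equiv.Perm (Fin n) := Equiv.swap i₀ m
  have hσ : ∀ i, σ (σ i) = i := fun i => Equiv.swap_apply_self _ _ _
  have hσm : σ m = i₀ := Equiv.swap_apply_right _ _
  have hσi : σ i₀ = m := Equiv.swap_apply_left _ _
  let f : En n →ₗ[ℝ] En n :=
    { toFun := fun x => WithLp.toLp 2 fun i => lam * x i₀ * v i +
        (x (σ i) - if i = m then (∑ j, a j * x (σ j)) / a m else 0)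
      map_add' := by
        intro x y
        ext i
        simp only [PiLp.add_apply, mul_add, Finset.sum_add_distrib, add_div]
        split_ifs <;> ring
      map_smul' := by
        intro c x
        ext i
        have h1 : ∑ j, a j * (c * x (σ j)) = c * ∑ j, a j * x (σ j) := by
          rw [Finset.mul_sum]
          exact Finset.sum_congr rfl fun j _ => by ring
        simp only [PiLp.smul_apply, smul_eq_mul, RingHom.id_apply, h1]
        split_ifs <;> ring }
  have hf : ∀ x i, f x i = lam * x i₀ * v i +
      (x (σ i) - if i = m then (∑ j, a j * x (σ j)) / a m else 0) := fun x i => rfl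
  have hdot : ∀ x, ∑ i, a i * (f x) i = lam * x i₀ := by
    intro x
    simp only [hf, mul_add, mul_sub, Finset.sum_add_distrib, Finset.sum_sub_distrib]
    have h1 : ∑ i, a i * (lam * x i₀ * v i) = lam * x i₀ := by
      have : ∑ i, a i * (lam * x i₀ * v i) = (lam * x i₀) * ∑ i, a i * v i := by
        rw [Finset.mul_sum]
        exact Finset.sum_congr rfl fun j _ => by ring
      rw [this, hv, mul_one]
    have h2 : ∑ i, a i * (if i = m then (∑ j, a j * x (σ j)) / a m else 0) =
        ∑ j, a j * x (σ j) := by
      simp only [mul_ite, mul_zero, Finset.sum_ite_eq', Finset.mem_univ, if_true]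
      field_simp
    rw [h1, h2]
    ring
  have hinj : Function.Injective f := by
    rw [injective_iff_map_eq_zero]
    intro x hx
    have h0 : x i₀ = 0 := by
      have h1 := hdot x
      rw [hx] at h1
      simp only [PiLp.zero_apply, mul_zero, Finset.sum_const_zero] at h1
      rcases mul_eq_zero.1 h1.symm with h | h
      · exact absurd h hl
      · exact h
    ext i
    have h1 : ∀ i, f x i = 0 := fun i => by rw [hx]; rfl
    by_cases hi : σ i = m
    · have : i = i₀ := by
        have := congrArg σ hi
        rwa [hσ, hσm] at this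
      rw [this, h0]; rfl
    · have h2 := h1 (σ i)
      rw [hf, h0, hσ, if_neg hi] at h2
      simpa using h2
  let e : En n ≃ₗ[ℝ] En n := LinearEquiv.ofInjectiveEndo f hinj
  refine ⟨e.toContinuousLinearEquiv, fun x => ?_, ?_⟩
  · exact hdot x
  · have h3 : (e.toContinuousLinearEquiv (EuclideanSpace.single i₀ 1) : En n) =
        f (EuclideanSpace.single i₀ 1) := rfl
    rw [h3]
    ext i
    rw [hf]
    have h4 : ∀ j, (EuclideanSpace.single i₀ (1 : ℝ) : En n) (σ j) = if j = m then 1 else 0 := by
      intro j
      rw [PiLp.single_apply]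
      congr 1
      apply propext
      constructor
      · intro h
        have := congrArg σ h
        rwa [hσ, hσi] at this
      · rintro rfl
        exact hσm
    simp only [h4, mul_ite, mul_one, mul_zero, Finset.sum_ite_eq', Finset.mem_univ, if_true]
    rw [div_self hm]
    simp

end Vale.Agent.P252.H687
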