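import Vale.Agent.P252.H687.Equiv

/-!
# Flat contact sets produce wedges (block C5)
-/

open scoped ContDiff Topology
open Filter MeasureTheory

namespace Vale.Agent.P252.H687

open Vale.Agent.P252.R

/-- `a·x`. -/
noncomputable def dotp {n : ℕ} (a : Fin n → ℝ) (x : En n) : ℝ := ∑ i, a i * x i

theorem dotp_add {n : ℕ} (a : Fin n → ℝ) (x y : En n) : dotp a (x + y) = dotp a x + dotp a y := by
  simp [dotp, mul_add, Finset.sum_add_distrib]

theorem dotp_sub {n : ℕ} (a : Fin n → ℝ) (x y : En n) : dotp a (x - y) = dotp a x - dotp a y := by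
  simp [dotp, mul_sub, Finset.sum_sub_distrib]

theorem dotp_smul {n : ℕ} (a : Fin n → ℝ) (c : ℝ) (x : En n) : dotp a (c • x) = c * dotp a x := by
  simp only [dotp, PiLp.smul_apply, smul_eq_mul, Finset.mul_sum]
  exact Finset.sum_congr rfl fun i _ => by ring

theorem dotp_zero {n : ℕ} (a : Fin n → ℝ) : dotp a (0 : En n) = 0 := by simp [dotp]

theorem continuous_dotp {n : ℕ} (a : Fin n → ℝ) : Continuous (dotp (n := n) a) := by
  unfold dotp
  fun_prop

theorem sum_single {n : ℕ} (x : En n) : ∑ i, x i • (EuclideanSpace.single i (1 : ℝ) : En n) = x := by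
  classical
  ext j
  simp [Pi.single_apply]

theorem dotp_map {n : ℕ} (b : Fin n → ℝ) (T : En n ≃L[ℝ] En n) (x : En n) :
    ∑ i, dotp b (T (EuclideanSpace.single i 1)) * x i = dotp b (T x) := by
  conv_rhs => rw [← sum_single x]
  rw [map_sum]
  have : ∀ s : Finset (Fin n), dotp b (∑ i ∈ s, T (x i • (EuclideanSpace.single i (1 : ℝ) : En n))) =
      ∑ i ∈ s, dotp b (T (EuclideanSpace.single i 1)) * x i := by
    classical
    intro s
    induction s using Finset.induction_on with
    | empty => simp [dotp_zero]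
    | insert i s his ih =>
      rw [Finset.sum_insert his, Finset.sum_insert his, dotp_add, ih, map_smul, dotp_smul]
      ring
  rw [this]

theorem ones_one {n : ℕ} (i₀ : Fin n) (h0 : i₀.val = 0) :
    ones n 1 = (EuclideanSpace.single i₀ 1 : En n) := by
  classical
  ext i
  simp only [ones, PiLp.single_apply]
  by_cases h : i = i₀
  · simp [h, h0]
  · have : ¬ (i.val < 1) := by
      intro h'
      apply h
      apply Fin.ext
      omega
    simp [h, this]

theorem eq_smul_single {n : ℕ} (i₀ : Fin n) (h0 : i₀.val = 0) (x : En n)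
    (hx : ∀ i : Fin n, 1 ≤ i.val → x i = 0) :
    x = x i₀ • (EuclideanSpace.single i₀ 1 : En n) := by
  classical
  ext i
  simp only [PiLp.smul_apply, PiLp.single_apply, smul_eq_mul]
  by_cases h : i = i₀
  · simp [h]
  · have : 1 ≤ i.val := by
      by_contra h'
      apply h
      apply Fin.ext
      omega
    simp [h, hx i this]

/-- Upward translations of interior points are interior. -/
theorem interior_up {n : ℕ} {K : Set (En n × ℝ)}
    (hup : ∀ p ∈ K, ∀ s : ℝ, 0 ≤ s → (p.1, p.2 + s) ∈ K) {p : En n × ℝ} (hp : p ∈ interior K)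
    {s : ℝ} (hs : 0 ≤ s) : (p.1, p.2 + s) ∈ interior K := by
  have hcont : Continuous fun q : En n × ℝ => (q.1, q.2 - s) := by fun_prop
  have hU : IsOpen ((fun q : En n × ℝ => (q.1, q.2 - s)) ⁻¹' interior K) :=
    isOpen_interior.preimage hcont
  have hsub : ((fun q : En n × ℝ => (q.1, q.2 - s)) ⁻¹' interior K) ⊆ K := by
    intro q hq
    have h1 : (q.1, q.2 - s) ∈ K := interior_subset hq
    have h2 := hup _ h1 s hs
    simpa using h2
  apply interior_maximal hsub hU
  simpa using hp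


/-- Linear functional of the flat direction: the core construction. -/
theorem flat_core {n : ℕ} (i₀ : Fin n) (h0 : i₀.val = 0) (hlim : Stmt_limitWedge n 1)
    (hadm : Stmt_admPull n) (K : Set (En n × ℝ)) (hK : IsClosed K) (hc : Convex ℝ K) (hA : Adm K)
    (hup : ∀ p ∈ K, ∀ s : ℝ, 0 ≤ s → (p.1, p.2 + s) ∈ K) (q₀ : En n × ℝ) (hq₀ : q₀ ∈ interior K)
    (b : Fin n → ℝ) (c : ℝ) (hη : ∀ p ∈ K, dotp b p.1 + c ≤ p.2) (a : Fin n → ℝ)
    (hbd : ∀ C : ℝ, Bornology.IsBounded
      {p | p ∈ K ∧ p.2 - dotp b p.1 - c ≤ C ∧ dotp a p.1 ≤ C})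
    (q₁ q₂ : En n × ℝ) (h1 : q₁ ∈ K) (h2 : q₂ ∈ K) (e1 : dotp b q₁.1 + c = q₁.2)
    (e2 : dotp b q₂.1 + c = q₂.2) (hlt : dotp a q₁.1 < dotp a q₂.1) :
    ∃ K', Wedge n 1 K' := by
  classical
  set η : En n × ℝ → ℝ := fun p => p.2 - dotp b p.1 - c with hηdef
  set g : En n × ℝ → ℝ := fun p => dotp a p.1 with hgdef
  have cη : Continuous η := by
    have := continuous_dotp b
    exact (continuous_snd.sub (this.comp continuous_fst)).sub continuous_const
  have cg : Continuous g := (continuous_dotp a).comp continuous_fst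
  have η_nonneg : ∀ p ∈ K, 0 ≤ η p := fun p hp => by
    have := hη p hp
    simp only [hηdef]; linarith
  have comp : ∀ C D : ℝ, IsCompact {p | p ∈ K ∧ η p ≤ C ∧ g p ≤ D} := by
    intro C D
    apply Metric.isCompact_of_isClosed_isBounded
    · exact hK.inter ((isClosed_le cη continuous_const).inter (isClosed_le cg continuous_const))
    · apply (hbd (max C D)).subset
      rintro p ⟨hp, hp1, hp2⟩
      exact ⟨hp, hp1.trans (le_max_left _ _), hp2.trans (le_max_right _ _)⟩
  -- minimum of `g` on the contact set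
  obtain ⟨p₀, hp₀, hmin⟩ := (comp 0 (g q₁)).exists_isMinOn
    ⟨q₁, h1, by simp only [hηdef]; linarith, le_refl _⟩ cg.continuousOn
  obtain ⟨hp₀K, hp₀η, hp₀g⟩ := hp₀
  have ηp₀ : η p₀ = 0 := le_antisymm hp₀η (η_nonneg _ hp₀K)
  have gmin : ∀ p ∈ K, η p ≤ 0 → g p₀ ≤ g p := by
    intro p hp hp'
    by_cases hh : g p ≤ g q₁
    · exact hmin ⟨hp, hp', hh⟩
    · push Not at hh
      linarith
  set κ₀ : ℝ := g q₂ - g p₀ with hκ₀
  have κ₀_pos : 0 < κ₀ := by
    simp only [hκ₀, hgdef] at *
    linarith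
  -- lower bound of `g` where `η` is small
  have hε : ∀ ε : ℝ, 0 < ε → ∃ ε₀ : ℝ, 0 < ε₀ ∧ ε₀ ≤ 1 ∧ ∀ p ∈ K, η p ≤ ε₀ → g p₀ - ε ≤ g p := by
    intro ε hε
    by_cases hne : {p | p ∈ K ∧ η p ≤ 1 ∧ g p ≤ g p₀ - ε}.Nonempty
    · obtain ⟨p₁, hp₁, hm⟩ := (comp 1 (g p₀ - ε)).exists_isMinOn hne cη.continuousOn
      have hpos : 0 < η p₁ := by
        by_contra hh
        push Not at hh
        have := gmin p₁ hp₁.1 hh
        linarith [hp₁.2.2]
      refine ⟨min 1 (η p₁ / 2), lt_min one_pos (by positivity), min_le_left _ _, ?_⟩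
      intro p hp hpη
      by_contra hh
      push Not at hh
      have h3 : η p₁ ≤ η p := hm ⟨hp, hpη.trans (min_le_left _ _), hh.le⟩
      have h4 : η p ≤ η p₁ / 2 := hpη.trans (min_le_right _ _)
      linarith
    · refine ⟨1, one_pos, le_refl _, fun p hp hpη => ?_⟩
      by_contra hh
      push Not at hh
      exact hne ⟨p, hp, hpη, hh.le⟩
  -- parameters
  let lam : ℕ → ℝ := fun j => κ₀ / (2 * ((j : ℝ) + 1))
  have hj1 : ∀ j : ℕ, (0 : ℝ) < (j : ℝ) + 1 := fun j => by positivity
  have lam_pos : ∀ j, 0 < lam j := fun j => by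
    have := hj1 j
    simp only [lam]; positivity
  choose ε₀ hε₀pos hε₀le hε₀ using fun j : ℕ => hε (lam j / ((j : ℝ) + 1))
    (div_pos (lam_pos j) (hj1 j))
  let μ : ℕ → ℝ := fun j => ((j : ℝ) + 1) / ε₀ j
  have μ_pos : ∀ j, 0 < μ j := fun j => div_pos (hj1 j) (hε₀pos j)
  have hη₀ : 0 ≤ η q₀ := η_nonneg _ (interior_subset hq₀)
  have hs : ∀ j : ℕ, ∃ s : ℝ, 0 < s ∧ s ≤ 1 ∧ κ₀ / 2 ≤ κ₀ + s * (g q₀ - g q₂) ∧
      s * η q₀ * μ j ≤ 1 / ((j : ℝ) + 1) := by
    intro j
    have hμ := μ_pos j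
    have hj := hj1 j
    set A : ℝ := κ₀ / (2 * (|g q₀ - g q₂| + 1)) with hAd
    set B : ℝ := 1 / (((j : ℝ) + 1) * μ j * (η q₀ + 1)) with hBd
    have hA1 : 0 < |g q₀ - g q₂| + 1 := by positivity
    have hApos : 0 < A := by positivity
    have hBpos : 0 < B := by positivity
    refine ⟨min 1 (min A B), lt_min one_pos (lt_min hApos hBpos), min_le_left _ _, ?_, ?_⟩
    · set s := min 1 (min A B)
      have hs0 : 0 < s := lt_min one_pos (lt_min hApos hBpos)
      have hsA : s ≤ A := (min_le_right _ _).trans (min_le_left _ _)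
      have h3 : s * (|g q₀ - g q₂| + 1) ≤ κ₀ / 2 := by
        calc s * (|g q₀ - g q₂| + 1) ≤ A * (|g q₀ - g q₂| + 1) :=
              mul_le_mul_of_nonneg_right hsA hA1.le
          _ = κ₀ / 2 := by rw [hAd]; field_simp
      have h4 : -|g q₀ - g q₂| ≤ g q₀ - g q₂ := neg_abs_le _
      nlinarith
    · set s := min 1 (min A B)
      have hs0 : 0 < s := lt_min one_pos (lt_min hApos hBpos)
      have hsB : s ≤ B := (min_le_right _ _).trans (min_le_right _ _)
      calc s * η q₀ * μ j ≤ B * (η q₀ + 1) * μ j := by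
            apply mul_le_mul_of_nonneg_right _ hμ.le
            apply mul_le_mul hsB (by linarith) hη₀ hBpos.le
        _ = 1 / ((j : ℝ) + 1) := by
            rw [hBd]
            have : η q₀ + 1 ≠ 0 := by positivity
            field_simp
  choose s hs0 hs1 hsκ hsη using hs
  -- the interior points
  let q : ℕ → En n × ℝ := fun j => (1 - s j) • q₂ + s j • q₀
  have hq : ∀ j, q j ∈ interior K := fun j =>
    hc.combo_self_interior_mem_interior h2 hq₀ (by linarith [hs1 j]) (hs0 j) (by ring)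
  let κ : ℕ → ℝ := fun j => κ₀ + s j * (g q₀ - g q₂)
  have κ_ge : ∀ j, κ₀ / 2 ≤ κ j := hsκ
  have κ_pos : ∀ j, 0 < κ j := fun j => lt_of_lt_of_le (by positivity) (κ_ge j)
  have gq : ∀ j, g (q j) - g p₀ = κ j := by
    intro j
    simp only [hgdef, q, κ, hκ₀, Prod.fst_add, Prod.smul_fst, dotp_add, dotp_smul]
    ring
  have η_aff : ∀ (x y : En n × ℝ) (t : ℝ), η ((1 - t) • x + t • y) = (1 - t) * η x + t * η y := by
    intro x y t
    simp only [hηdef, Prod.fst_add, Prod.smul_fst, dotp_add, dotp_smul, Prod.snd_add,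
      Prod.smul_snd, smul_eq_mul]
    ring
  have ηq₂ : η q₂ = 0 := by simp only [hηdef]; linarith
  have ηq : ∀ j, η (q j) = s j * η q₀ := by
    intro j
    simp only [q]
    rw [η_aff, ηq₂]; ring
  let v : ℕ → En n := fun j => (κ j)⁻¹ • ((q j).1 - p₀.1)
  have hv : ∀ j, dotp a (v j) = 1 := by
    intro j
    simp only [v, dotp_smul, dotp_sub]
    have h3 := gq j
    simp only [hgdef] at h3
    rw [h3]
    exact inv_mul_cancel₀ (κ_pos j).ne'
  choose T hT1 hT2 using fun j => exists_T i₀ a (v j) (hv j) (lam j) (lam_pos j).ne'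
  -- the change of variables
  let P : ℕ → En n × ℝ → En n × ℝ := fun j p =>
    (T j p.1 + p₀.1, p.2 / μ j + dotp b (T j p.1 + p₀.1) + c)
  have cP : ∀ j, Continuous (P j) := by
    intro j
    have h3 : Continuous fun p : En n × ℝ => T j p.1 + p₀.1 :=
      ((T j).continuous.comp continuous_fst).add continuous_const
    exact h3.prodMk (((continuous_snd.div_const _).add ((continuous_dotp b).comp h3)).add
      continuous_const)
  have ηP : ∀ j p, η (P j p) = p.2 / μ j := by
    intro j p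
    simp only [hηdef, P]; ring
  have gP : ∀ j p, g (P j p) = lam j * p.1 i₀ + g p₀ := by
    intro j p
    simp only [hgdef, P, dotp_add]
    rw [show dotp a (T j p.1) = lam j * p.1 i₀ from hT1 j p.1]
  -- points on the new axis
  have axis : ∀ j (t z : ℝ), 0 < t → lam j * t ≤ κ j → 1 / ((j : ℝ) + 1) ≤ z →
      P j (t • (EuclideanSpace.single i₀ 1 : En n), z) ∈ interior K := by
    intro j t z ht htκ hz
    set τ : ℝ := lam j * t / κ j with hτ
    have hτ0 : 0 < τ := div_pos (mul_pos (lam_pos j) ht) (κ_pos j)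
    have hτ1 : τ ≤ 1 := by rw [hτ, div_le_one (κ_pos j)]; exact htκ
    have h3 : (1 - τ) • p₀ + τ • q j ∈ interior K :=
      hc.combo_self_interior_mem_interior hp₀K (hq j) (by linarith) hτ0 (by ring)
    have h4 : η ((1 - τ) • p₀ + τ • q j) = τ * (s j * η q₀) := by
      rw [η_aff, ηp₀, ηq]; ring
    have h5 : τ * (s j * η q₀) ≤ z / μ j := by
      rw [le_div_iff₀ (μ_pos j)]
      have h6 : s j * η q₀ * μ j ≤ z := (hsη j).trans hz
      have h7 : 0 ≤ s j * η q₀ * μ j := by
        have := (hs0 j).le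
        have := (μ_pos j).le
        positivity
      nlinarith
    have h8 := interior_up hup h3 (s := z / μ j - τ * (s j * η q₀)) (by linarith)
    have h9 : (((1 - τ) • p₀ + τ • q j).1, ((1 - τ) • p₀ + τ • q j).2 +
        (z / μ j - τ * (s j * η q₀))) =
        P j (t • (EuclideanSpace.single i₀ 1 : En n), z) := by
      have h10 : T j (t • (EuclideanSpace.single i₀ 1 : En n)) = τ • ((q j).1 - p₀.1) := by
        rw [map_smul, hT2]
        simp only [v, smul_smul, hτ]
        congr 1
        field_simp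
      have h11 : ((1 - τ) • p₀ + τ • q j).1 = τ • ((q j).1 - p₀.1) + p₀.1 := by
        simp only [Prod.fst_add, Prod.smul_fst]
        module
      have h12 : ((1 - τ) • p₀ + τ • q j).2 =
          τ * (s j * η q₀) + dotp b ((1 - τ) • p₀ + τ • q j).1 + c := by
        rw [← h4]; simp only [hηdef]; ring
      simp only [P]
      rw [h10]
      refine Prod.ext h11 ?_
      simp only
      rw [h12, h11]; ring
    rwa [h9] at h8
  let K' : ℕ → Set (En n × ℝ) := fun j => (P j) ⁻¹' K
  have hpull : ∀ j, K' j = pull (T j) p₀.1 (μ j)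
      (fun i => -(μ j) * dotp b (T j (EuclideanSpace.single i 1)))
      (-(μ j) * (dotp b p₀.1 + c)) K := by
    intro j
    ext p
    simp only [K', Set.mem_preimage, pull, Set.mem_ofPred_eq, P]
    have h3 : ∑ i, -(μ j) * dotp b (T j (EuclideanSpace.single i 1)) * p.1 i =
        -(μ j) * dotp b (T j p.1) := by
      rw [← dotp_map b (T j) p.1, Finset.mul_sum]
      exact Finset.sum_congr rfl fun i _ => by ring
    have h4 : (p.2 - ∑ i, -(μ j) * dotp b (T j (EuclideanSpace.single i 1)) * p.1 i -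
        -(μ j) * (dotp b p₀.1 + c)) / μ j = p.2 / μ j + dotp b (T j p.1 + p₀.1) + c := by
      rw [h3, dotp_add]
      have := (μ_pos j).ne'
      field_simp
      ring
    rw [h4]
  apply hlim K'
  · exact fun j => hK.preimage (cP j)
  · intro j x hx y hy α β hα hβ hαβ
    have h3 : P j (α • x + β • y) = α • P j x + β • P j y := by
      have hβ' : β = 1 - α := by linarith
      subst hβ'
      refine Prod.ext ?_ ?_
      · simp only [P, Prod.fst_add, Prod.smul_fst, map_add, map_smul]
        module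
      · simp only [P, Prod.fst_add, Prod.smul_fst, Prod.snd_add, Prod.smul_snd, map_add, map_smul,
          dotp_add, dotp_smul, smul_eq_mul]
        ring
    show P j (α • x + β • y) ∈ K
    rw [h3]
    exact hc hx hy hα hβ hαβ
  · intro j
    rw [hpull]
    exact hadm K (T j) p₀.1 (μ j) _ _ (μ_pos j) hA
  · -- open orthant
    intro p hp2 hp1 hp3
    have hx0 : 0 < p.1 i₀ := hp1 i₀ (by omega)
    have h3 : ∀ᶠ j : ℕ in atTop, 1 / ((j : ℝ) + 1) ≤ p.2 := by
      have := tendsto_one_div_add_atTop_nhds_zero_nat (𝕜 := ℝ)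
      exact this.eventually (ge_mem_nhds hp2)
    have h4 : ∀ᶠ j : ℕ in atTop, 1 / ((j : ℝ) + 1) ≤ 1 / p.1 i₀ := by
      have := tendsto_one_div_add_atTop_nhds_zero_nat (𝕜 := ℝ)
      exact this.eventually (ge_mem_nhds (by positivity))
    filter_upwards [h3, h4] with j hj3 hj4
    have h5 := axis j (p.1 i₀) p.2 hx0 (by
      have h6 : p.1 i₀ ≤ (j : ℝ) + 1 := by
        rw [div_le_div_iff₀ (hj1 j) hx0] at hj4
        linarith
      have h7 : lam j * p.1 i₀ ≤ κ₀ / 2 := by
        calc lam j * p.1 i₀ ≤ lam j * ((j : ℝ) + 1) :=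
              mul_le_mul_of_nonneg_left h6 (lam_pos j).le
          _ = κ₀ / 2 := by
              simp only [lam]
              have := (hj1 j).ne'
              field_simp
      exact h7.trans (κ_ge j)) hj3
    have h8 : (p.1 i₀ • (EuclideanSpace.single i₀ 1 : En n), p.2) = p := by
      rw [← eq_smul_single i₀ h0 p.1 hp3]
    rw [h8] at h5
    show P j p ∈ K
    exact interior_subset h5
  · -- second condition
    intro M δ hδ
    have h3 : ∀ᶠ j : ℕ in atTop, 1 / ((j : ℝ) + 1) ≤ δ := by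
      have := tendsto_one_div_add_atTop_nhds_zero_nat (𝕜 := ℝ)
      exact this.eventually (ge_mem_nhds hδ)
    have h4 : ∀ᶠ j : ℕ in atTop, M ≤ (j : ℝ) + 1 := by
      have h5 : ∀ᶠ j : ℕ in atTop, M ≤ (j : ℝ) :=
        (tendsto_natCast_atTop_atTop (R := ℝ)).eventually (eventually_ge_atTop M)
      filter_upwards [h5] with j hj
      linarith
    filter_upwards [h3, h4] with j hj3 hj4 p hp hpM _
    have hpK : P j p ∈ K := hp
    have h5 : 0 ≤ p.2 / μ j := by
      rw [← ηP j p]; exact η_nonneg _ hpK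
    have h6 : 0 ≤ p.2 := by
      by_contra hh
      push Not at hh
      have := div_neg_of_neg_of_pos hh (μ_pos j)
      linarith
    refine ⟨by linarith, ?_⟩
    intro i hi
    have hii : i = i₀ := Fin.ext (by omega)
    subst hii
    have h7 : η (P j p) ≤ ε₀ j := by
      rw [ηP, div_le_iff₀ (μ_pos j)]
      simp only [μ]
      have := (hε₀pos j).ne'
      field_simp
      linarith
    have h8 := hε₀ j _ hpK h7
    rw [gP] at h8
    have h9 : -(lam j / ((j : ℝ) + 1)) ≤ lam j * p.1 i := by linarith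
    have h10 : lam j * (-(1 / ((j : ℝ) + 1))) ≤ lam j * p.1 i := by
      calc lam j * (-(1 / ((j : ℝ) + 1))) = -(lam j / ((j : ℝ) + 1)) := by ring
        _ ≤ _ := h9
    have h11 := le_of_mul_le_mul_left h10 (lam_pos j)
    linarith
  · -- bounded slice
    intro j
    have h3 := hbd (max (1 / μ j) (lam j + g p₀))
    obtain ⟨R, hR⟩ := h3.exists_norm_le
    have h4 : Bornology.IsBounded (Metric.closedBall (0 : En n × ℝ)
        (max (‖((T j).symm : En n →L[ℝ] En n)‖ * (R + ‖p₀.1‖)) 1)) := Metric.isBounded_closedBall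
    apply h4.subset
    rintro p ⟨hp, hp2, hp1⟩
    have hpK : P j p ∈ K := hp
    have h5 : ‖P j p‖ ≤ R := by
      apply hR
      refine ⟨hpK, ?_, ?_⟩
      · show η (P j p) ≤ _
        rw [ηP, hp2]
        exact le_max_left _ _
      · show g (P j p) ≤ _
        rw [gP, hp1 i₀ (by omega), mul_one]
        exact le_max_right _ _
    have h6 : ‖T j p.1 + p₀.1‖ ≤ R := (norm_fst_le (P j p)).trans h5
    have h7 : ‖T j p.1‖ ≤ R + ‖p₀.1‖ := by
      calc ‖T j p.1‖ = ‖(T j p.1 + p₀.1) - p₀.1‖ := by rw [add_sub_cancel_right]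
        _ ≤ ‖T j p.1 + p₀.1‖ + ‖p₀.1‖ := norm_sub_le _ _
        _ ≤ R + ‖p₀.1‖ := by linarith
    have h8 : ‖p.1‖ ≤ ‖((T j).symm : En n →L[ℝ] En n)‖ * (R + ‖p₀.1‖) := by
      calc ‖p.1‖ = ‖((T j).symm : En n →L[ℝ] En n) (T j p.1)‖ := by
            simp
        _ ≤ ‖((T j).symm : En n →L[ℝ] En n)‖ * ‖T j p.1‖ := ContinuousLinearMap.le_opNorm _ _
        _ ≤ _ := mul_le_mul_of_nonneg_left h7 (norm_nonneg _)
    rw [mem_closedBall_zero_iff]
    refine max_le (h8.trans (le_max_left _ _)) ?_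
    rw [hp2]
    simp
  · -- ball in the slice
    intro j
    have h3 : P j ((1 : ℝ) • (EuclideanSpace.single i₀ 1 : En n), 1) ∈ interior K := by
      apply axis j 1 1 one_pos
      · rw [mul_one]
        have : lam j ≤ κ₀ / 2 := by
          simp only [lam]
          apply div_le_div_of_nonneg_left κ₀_pos.le (by norm_num)
          have : (0 : ℝ) ≤ (j : ℝ) := by positivity
          linarith
        exact this.trans (κ_ge j)
      · rw [div_le_one (hj1 j)]
        have : (0 : ℝ) ≤ (j : ℝ) := by positivity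
        linarith
    rw [one_smul] at h3
    have hcont : Continuous fun y : En n => P j ((EuclideanSpace.single i₀ 1 : En n) + y, 1) :=
      (cP j).comp ((continuous_const.add continuous_id).prodMk continuous_const)
    have hopen : IsOpen ((fun y : En n => P j ((EuclideanSpace.single i₀ 1 : En n) + y, 1)) ⁻¹'
        interior K) := isOpen_interior.preimage hcont
    have hmem : (0 : En n) ∈ ((fun y : En n => P j ((EuclideanSpace.single i₀ 1 : En n) + y, 1)) ⁻¹'
        interior K) := by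
      simpa using h3
    obtain ⟨ε, hε, hball⟩ := Metric.isOpen_iff.1 hopen 0 hmem
    refine ⟨ε / 2, by positivity, ?_⟩
    intro y _ hy
    have h4 : y ∈ Metric.ball (0 : En n) ε := by
      rw [mem_ball_zero_iff]; linarith
    have h5 := hball h4
    show P j _ ∈ K
    rw [ones_one i₀ h0]
    exact interior_subset h5

end Vale.Agent.P252.H687
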